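import Mathlib
import Vale.Agent.P254.H164.Harm

/-!
Block K, part K4 of the strong slicing chain: the tetrahedron bound.

`A` is a totally symmetric 3-tensor whose slices define a contraction
`Y ↦ ∑ A_e Y A_e` of all real matrices and which fixes the diagonal matrix `d`.  For every
positive semidefinite kernel `y` with diagonal `d` the contraction of four copies of `A` along
the edges of a tetrahedron, weight `d` on one edge and `y` on the opposite pair, is at most
`∑ d_i ^ 2` in absolute value.  The harmonic kernel `2 d_i d_j / (d_i + d_j)` is admissible.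
-/

set_option autoImplicit false

namespace Vale.Agent.P254.H46

open Matrix Finset
open scoped BigOperators

variable {n : ℕ}

/-- the tetrahedral contraction with weight `d` on one edge and kernel `y` on the pair of
edges leaving the fourth vertex -/
def tet (A : Fin n → Fin n → Fin n → ℝ) (d : Fin n → ℝ) (y : Matrix (Fin n) (Fin n) ℝ) : ℝ :=
  ∑ l, ∑ e, ∑ i, ∑ j, ∑ a, ∑ b, d l * (A e a b * A l a i * A l b j * A e i j * y i j)

/-- the quadratic form of the map `Y ↦ ∑ A_e Y A_e` in coordinates -/
def qf (A : Fin n → Fin n → Fin n → ℝ) (Y : Matrix (Fin n) (Fin n) ℝ) : ℝ :=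
  ∑ e, ∑ i, ∑ j, ∑ a, ∑ b, A e a b * A e i j * Y a i * Y b j

/-- coordinates of the quadratic form -/
theorem qf_eq (A : Fin n → Fin n → Fin n → ℝ) (hs : ∀ i j k, A i j k = A i k j)
    (Y : Matrix (Fin n) (Fin n) ℝ) :
    ∑ e, ((Matrix.of fun a b => A e a b) * Y * (Matrix.of fun a b => A e a b) * Yᵀ).trace
      = qf A Y := by
  refine Finset.sum_congr rfl fun e _ => ?_
  have h2 : ∀ b, ((Matrix.of fun a b => A e a b) * Y * (Matrix.of fun a b => A e a b) * Yᵀ) b b
      = ∑ j, ∑ i, ∑ a, A e a b * A e i j * Y a i * Y b j := by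
    intro b
    simp only [Matrix.mul_apply, Matrix.of_apply, Matrix.transpose_apply]
    refine Finset.sum_congr rfl fun j _ => ?_
    rw [Finset.sum_mul]
    refine Finset.sum_congr rfl fun i _ => ?_
    rw [Finset.sum_mul, Finset.sum_mul]
    refine Finset.sum_congr rfl fun a _ => ?_
    rw [hs e b a]
    ring
  rw [Matrix.trace]
  simp only [Matrix.diag_apply, h2]
  -- reorder `b j i a` into `i j a b`
  rw [Finset.sum_comm]
  calc ∑ j, ∑ b, ∑ i, ∑ a, A e a b * A e i j * Y a i * Y b j
      = ∑ j, ∑ i, ∑ b, ∑ a, A e a b * A e i j * Y a i * Y b j :=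
        Finset.sum_congr rfl fun j _ => Finset.sum_comm
    _ = ∑ i, ∑ j, ∑ b, ∑ a, A e a b * A e i j * Y a i * Y b j := Finset.sum_comm
    _ = _ := Finset.sum_congr rfl fun i _ => Finset.sum_congr rfl fun j _ => Finset.sum_comm

/-- one rank one piece of the kernel -/
theorem tet_rank_one (A : Fin n → Fin n → Fin n → ℝ) (d p : Fin n → ℝ) :
    tet A d (Matrix.of fun i j => p i * p j)
      = ∑ l, d l * qf A (Matrix.of fun a i => A l a i * p i) := by
  unfold tet qf
  refine Finset.sum_congr rfl fun l _ => ?_
  simp only [Finset.mul_sum]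
  refine Finset.sum_congr rfl fun e _ => Finset.sum_congr rfl fun i _ =>
    Finset.sum_congr rfl fun j _ => Finset.sum_congr rfl fun a _ =>
    Finset.sum_congr rfl fun b _ => ?_
  simp only [Matrix.of_apply]
  ring

/-- the tetrahedral contraction is linear in the kernel -/
theorem tet_sum {κ : Type*} (s : Finset κ) (A : Fin n → Fin n → Fin n → ℝ) (d : Fin n → ℝ)
    (y : κ → Matrix (Fin n) (Fin n) ℝ) :
    tet A d (∑ k ∈ s, y k) = ∑ k ∈ s, tet A d (y k) := by
  classical
  induction s using Finset.induction_on with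
  | empty => simp [tet]
  | insert k s hk ih =>
    rw [Finset.sum_insert hk, Finset.sum_insert hk, ← ih]
    unfold tet
    simp only [← Finset.sum_add_distrib, Matrix.add_apply]
    refine Finset.sum_congr rfl fun l _ => Finset.sum_congr rfl fun e _ =>
      Finset.sum_congr rfl fun i _ => Finset.sum_congr rfl fun j _ =>
      Finset.sum_congr rfl fun a _ => Finset.sum_congr rfl fun b _ => ?_
    ring

/-- the frobenius square of a slice with weighted columns, summed with weight `d` -/
theorem sum_frob (A : Fin n → Fin n → Fin n → ℝ) (d p : Fin n → ℝ) :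
    ∑ l, d l * ((Matrix.of fun a i => A l a i * p i) *
        (Matrix.of fun a i => A l a i * p i : Matrix (Fin n) (Fin n) ℝ)ᵀ).trace
      = ∑ i, (∑ l, ∑ a, d l * A l a i ^ 2) * (p i * p i) := by
  simp only [Matrix.trace, Matrix.diag_apply, Matrix.mul_apply, Matrix.of_apply,
    Matrix.transpose_apply, Finset.mul_sum, Finset.sum_mul]
  calc ∑ l, ∑ a, ∑ i, d l * (A l a i * p i * (A l a i * p i))
      = ∑ l, ∑ i, ∑ a, d l * (A l a i * p i * (A l a i * p i)) :=
        Finset.sum_congr rfl fun l _ => Finset.sum_comm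
    _ = ∑ i, ∑ l, ∑ a, d l * (A l a i * p i * (A l a i * p i)) := Finset.sum_comm
    _ = _ := by
        refine Finset.sum_congr rfl fun i _ => Finset.sum_congr rfl fun l _ =>
          Finset.sum_congr rfl fun a _ => ?_
        ring

/-- the fixed point equation, diagonal entries -/
theorem fix_diag (A : Fin n → Fin n → Fin n → ℝ)
    (hA : (∀ i j k, A i j k = A j i k) ∧ (∀ i j k, A i j k = A i k j)) (d : Fin n → ℝ)
    (hfix : ∑ a, (Matrix.of fun i j => A a i j) * diagonal d * (Matrix.of fun i j => A a i j)
      = diagonal d) (i : Fin n) : ∑ l, ∑ a, d l * A l a i ^ 2 = d i := by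
  have h := congrFun (congrFun hfix i) i
  rw [Matrix.sum_apply, diagonal_apply_eq] at h
  rw [← h, Finset.sum_comm]
  refine Finset.sum_congr rfl fun a _ => ?_
  rw [Matrix.mul_apply]
  refine Finset.sum_congr rfl fun l _ => ?_
  rw [Matrix.mul_diagonal]
  simp only [Matrix.of_apply]
  rw [hA.1 l a i, hA.2 a l i]
  ring

/-- **the tetrahedron bound** for a positive semidefinite kernel `y` with diagonal `d` -/
theorem K4_abs_le (A : Fin n → Fin n → Fin n → ℝ)
    (hA : (∀ i j k, A i j k = A j i k) ∧ (∀ i j k, A i j k = A i k j)) (d : Fin n → ℝ)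
    (hd : ∀ i, 0 ≤ d i)
    (hfix : ∑ a, (Matrix.of fun i j => A a i j) * diagonal d * (Matrix.of fun i j => A a i j)
      = diagonal d)
    (hK : ∀ Y : Matrix (Fin n) (Fin n) ℝ,
      |∑ e, ((Matrix.of fun i j => A e i j) * Y * (Matrix.of fun i j => A e i j) * Yᵀ).trace|
        ≤ (Y * Yᵀ).trace)
    (y : Matrix (Fin n) (Fin n) ℝ) (hy : y.PosSemidef) (hyd : ∀ i, y i i = d i) :
    |tet A d y| ≤ ∑ i, d i ^ 2 := by
  obtain ⟨U, r, -, -, hr, hU⟩ := H164.spec_psd hy
  set B : Matrix (Fin n) (Fin n) ℝ := Matrix.of fun k i => Real.sqrt (r k) * U i k with hBd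
  have hB : ∀ i j, y i j = ∑ k, B k i * B k j := by
    intro i j
    rw [hU, Matrix.mul_apply]
    refine Finset.sum_congr rfl fun k _ => ?_
    rw [Matrix.mul_diagonal, Matrix.transpose_apply, hBd]
    simp only [Matrix.of_apply]
    calc U i k * r k * U j k = U i k * (Real.sqrt (r k) * Real.sqrt (r k)) * U j k := by
          rw [Real.mul_self_sqrt (hr k)]
      _ = Real.sqrt (r k) * U i k * (Real.sqrt (r k) * U j k) := by ring
  have hsum : y = ∑ k, (Matrix.of fun i j => B k i * B k j : Matrix (Fin n) (Fin n) ℝ) := by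
    ext i j
    rw [hB, Matrix.sum_apply]
    simp only [Matrix.of_apply]
  have hdiag : ∀ i, ∑ k, B k i * B k i = d i := by
    intro i
    rw [← hyd i, hB]
  rw [hsum, tet_sum]
  refine (Finset.abs_sum_le_sum_abs _ _).trans ?_
  have h1 : ∀ k, |tet A d (Matrix.of fun i j => B k i * B k j)|
      ≤ ∑ i, d i * (B k i * B k i) := by
    intro k
    rw [tet_rank_one]
    refine (Finset.abs_sum_le_sum_abs _ _).trans ?_
    have h2 := sum_frob A d (B k)
    simp only [fix_diag A hA d hfix] at h2
    rw [← h2]
    refine Finset.sum_le_sum fun l _ => ?_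
    rw [abs_mul, abs_of_nonneg (hd l)]
    refine mul_le_mul_of_nonneg_left ?_ (hd l)
    rw [← qf_eq A hA.2]
    exact hK _
  refine (Finset.sum_le_sum fun k _ => h1 k).trans (le_of_eq ?_)
  rw [Finset.sum_comm]
  refine Finset.sum_congr rfl fun i _ => ?_
  rw [← Finset.mul_sum, hdiag i]
  ring

/-- the harmonic kernel `2 a b / (a + b)` is positive semidefinite on non negative numbers -/
theorem harm_posSemidef (d : Fin n → ℝ) (hd : ∀ i, 0 ≤ d i) :
    (Matrix.of fun i j => 2 * d i * d j / (d i + d j) :
      Matrix (Fin n) (Fin n) ℝ).PosSemidef := by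
  classical
  set f : Fin n → ℝ → ℝ := fun i t => if 0 < d i then Real.exp (-(1 / d i) * t) else 0 with hf
  have hint : ∀ i j, MeasureTheory.IntegrableOn (fun t => f i t * f j t) (Set.Ioi 0) ∧
      ∫ t in Set.Ioi (0 : ℝ), f i t * f j t = d i * d j / (d i + d j) := by
    intro i j
    by_cases hi : 0 < d i
    · by_cases hj : 0 < d j
      · have e : (fun t => f i t * f j t)
            = fun t => Real.exp (-(1 / d i + 1 / d j) * t) := by
          funext t
          simp only [hf, hi, hj, if_true]
          rw [← Real.exp_add]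
          congr 1; ring
        have hc : -(1 / d i + 1 / d j) < 0 := by
          have := one_div_pos.mpr hi
          have := one_div_pos.mpr hj
          linarith
        rw [e]
        refine ⟨integrableOn_exp_mul_Ioi hc 0, ?_⟩
        rw [integral_exp_mul_Ioi hc 0, mul_zero, Real.exp_zero]
        field_simp
        ring
      · have h0 : d j = 0 := le_antisymm (not_lt.mp hj) (hd j)
        have e : (fun t => f i t * f j t) = fun _ => 0 := by
          funext t; simp [hf, hj]
        rw [e, h0]
        refine ⟨MeasureTheory.integrableOn_zero, ?_⟩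
        simp
    · have h0 : d i = 0 := le_antisymm (not_lt.mp hi) (hd i)
      have e : (fun t => f i t * f j t) = fun _ => 0 := by
        funext t; simp [hf, hi]
      rw [e, h0]
      refine ⟨MeasureTheory.integrableOn_zero, ?_⟩
      simp
  refine Matrix.PosSemidef.of_dotProduct_mulVec_nonneg ?_ ?_
  · ext i j
    simp only [Matrix.conjTranspose_apply, Matrix.of_apply, star_trivial]
    rw [add_comm (d j), mul_right_comm]
  · intro x
    have e : star x ⬝ᵥ ((Matrix.of fun i j => 2 * d i * d j / (d i + d j) :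
        Matrix (Fin n) (Fin n) ℝ) *ᵥ x)
        = 2 * ∫ t in Set.Ioi (0 : ℝ), (∑ i, x i * f i t) ^ 2 := by
      have e1 : ∀ t, (∑ i, x i * f i t) ^ 2 = ∑ i, ∑ j, x i * x j * (f i t * f j t) := by
        intro t
        rw [sq, Finset.sum_mul_sum]
        refine Finset.sum_congr rfl fun i _ => Finset.sum_congr rfl fun j _ => ?_
        ring
      simp only [e1]
      rw [MeasureTheory.integral_finsetSum _ fun i _ =>
        MeasureTheory.integrable_finsetSum _ fun j _ => ((hint i j).1.integrable.const_mul _)]
      simp only [dotProduct, mulVec, Matrix.of_apply, star_trivial]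
      rw [Finset.mul_sum]
      refine Finset.sum_congr rfl fun i _ => ?_
      rw [MeasureTheory.integral_finsetSum _ fun j _ => ((hint i j).1.integrable.const_mul _)]
      rw [Finset.mul_sum, Finset.mul_sum]
      refine Finset.sum_congr rfl fun j _ => ?_
      rw [MeasureTheory.integral_const_mul, (hint i j).2]
      ring
    rw [e]
    exact mul_nonneg (by norm_num) (MeasureTheory.integral_nonneg fun t => sq_nonneg _)

/-- the diagonal of the harmonic kernel -/
theorem harm_diag (d : Fin n → ℝ) (i : Fin n) : 2 * d i * d i / (d i + d i) = d i := by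
  by_cases h : d i = 0
  · rw [h]; simp
  · field_simp
    ring

/-- **K4**: the tetrahedron bound for the harmonic kernel, coordinate form -/
theorem K4_le (A : Fin n → Fin n → Fin n → ℝ)
    (hA : (∀ i j k, A i j k = A j i k) ∧ (∀ i j k, A i j k = A i k j)) (d : Fin n → ℝ)
    (hd : ∀ i, 0 ≤ d i)
    (hfix : ∑ a, (Matrix.of fun i j => A a i j) * diagonal d * (Matrix.of fun i j => A a i j)
      = diagonal d)
    (hK : ∀ Y : Matrix (Fin n) (Fin n) ℝ,
      |∑ e, ((Matrix.of fun i j => A e i j) * Y * (Matrix.of fun i j => A e i j) * Yᵀ).trace|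
        ≤ (Y * Yᵀ).trace) :
    |∑ e, ∑ i, ∑ j, (∑ a, ∑ b, A e a b *
        ((Matrix.of fun i j => A a i j) * diagonal d * (Matrix.of fun i j => A b i j)) i j)
        * A e i j * (2 * d i * d j / (d i + d j))| ≤ ∑ i, d i ^ 2 := by
  have h := K4_abs_le A hA d hd hfix hK (Matrix.of fun i j => 2 * d i * d j / (d i + d j))
    (harm_posSemidef d hd) (fun i => by rw [Matrix.of_apply, harm_diag])
  have e : tet A d (Matrix.of fun i j => 2 * d i * d j / (d i + d j))
      = ∑ e, ∑ i, ∑ j, (∑ a, ∑ b, A e a b *
        ((Matrix.of fun i j => A a i j) * diagonal d * (Matrix.of fun i j => A b i j)) i j)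
        * A e i j * (2 * d i * d j / (d i + d j)) := by
    unfold tet
    rw [Finset.sum_comm]
    refine Finset.sum_congr rfl fun e _ => ?_
    rw [Finset.sum_comm]
    refine Finset.sum_congr rfl fun i _ => ?_
    rw [Finset.sum_comm]
    refine Finset.sum_congr rfl fun j _ => ?_
    rw [Finset.sum_comm, Finset.sum_mul, Finset.sum_mul]
    refine Finset.sum_congr rfl fun a _ => ?_
    rw [Finset.sum_comm, Finset.sum_mul, Finset.sum_mul]
    refine Finset.sum_congr rfl fun b _ => ?_
    rw [Matrix.mul_apply, Finset.mul_sum, Finset.sum_mul, Finset.sum_mul]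
    refine Finset.sum_congr rfl fun l _ => ?_
    rw [Matrix.mul_diagonal]
    simp only [Matrix.of_apply]
    rw [hA.1 a i l, hA.2 i a l, hA.1 i l a, hA.2 l i a, hA.1 b l j]
    ring
  rwa [e] at h

end Vale.Agent.P254.H46
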